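import Crest.Agent.R118P.Walsh

/-!
Noise operators on a block, first and second derivatives, and the Taylor estimate.
-/

set_option autoImplicit false
set_option linter.unusedSectionVars false

namespace Crest.Agent.R118P

open Finset Crest.AnalysisR

variable {ι : Type*} [Fintype ι] [DecidableEq ι]
variable {X : Type*} [NormedAddCommGroup X] [NormedSpace ℝ X]

/-- Rademacher projection in the block `B`. -/
noncomputable def r (B : Finset ι) (A : Finset ι) : ℝ := if (A ∩ B).card = 1 then 1 else 0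
/-- noise multiplier -/
noncomputable def T (B : Finset ι) (s : ℝ) (A : Finset ι) : ℝ := s ^ (A ∩ B).card
/-- its derivative -/
noncomputable def T1 (B : Finset ι) (s : ℝ) (A : Finset ι) : ℝ :=
  ((A ∩ B).card : ℝ) * s ^ ((A ∩ B).card - 1)
/-- its second derivative -/
noncomputable def T2 (B : Finset ι) (s : ℝ) (A : Finset ι) : ℝ :=
  ((A ∩ B).card : ℝ) * ((((A ∩ B).card - 1 : ℕ) : ℝ) * s ^ ((A ∩ B).card - 1 - 1))

lemma T_eq_prod (B : Finset ι) (s : ℝ) (A : Finset ι) :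
    T B s A = ∏ i ∈ A, if i ∈ B then s else 1 := by
  rw [Finset.prod_ite_mem, Finset.prod_const, T]

lemma Bd_T (B : Finset ι) {s : ℝ} (hs : |s| ≤ 1) : Bd X (T B s) 1 := by
  refine Bd_congr (Bd_prod (fun i => if i ∈ B then s else 1) ?_) (fun A => (T_eq_prod B s A).symm)
  intro i; split_ifs <;> simp [hs]

lemma hasDerivAt_T (B A : Finset ι) (s : ℝ) : HasDerivAt (fun s => T B s A) (T1 B s A) s := by
  simpa [T, T1] using hasDerivAt_pow (A ∩ B).card s

lemma hasDerivAt_T1 (B A : Finset ι) (s : ℝ) : HasDerivAt (fun s => T1 B s A) (T2 B s A) s := by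
  unfold T1 T2
  exact (hasDerivAt_pow ((A ∩ B).card - 1) s).const_mul _

lemma T1_zero (B A : Finset ι) : T1 B 0 A = r B A := by
  unfold T1 r
  split_ifs with h
  · simp [h]
  · rcases Nat.eq_zero_or_pos (A ∩ B).card with h0 | h0
    · simp [h0]
    · rw [zero_pow (by omega), mul_zero]

/-- colour class -/
def cls (B : Finset ι) (c : ι → Bool) (b : Bool) : Finset ι := B.filter (fun i => c i = b)

lemma I0 (B A : Finset ι) (a u : ℝ) :
    ∑ c : ι → Bool, ((2 : ℝ) ^ Fintype.card ι)⁻¹ * (T (cls B c true) a A * T (cls B c false) u A)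
      = T B ((a + u) / 2) A := by
  have h3 := Finset.prod_univ_sum (fun _ : ι => (Finset.univ : Finset Bool))
      (fun i b => (2 : ℝ)⁻¹ * (if i ∈ A ∩ B then (if b then a else u) else 1))
  simp only [Fintype.piFinset_univ] at h3
  have h4 : ∀ c : ι → Bool, ((2 : ℝ) ^ Fintype.card ι)⁻¹ *
      (T (cls B c true) a A * T (cls B c false) u A)
      = ∏ i, (2 : ℝ)⁻¹ * (if i ∈ A ∩ B then (if c i then a else u) else 1) := by
    intro c
    rw [Finset.prod_mul_distrib, Finset.prod_const, inv_pow, Finset.card_univ]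
    congr 1
    rw [T_eq_prod, T_eq_prod, ← Finset.prod_mul_distrib, ← Finset.univ_inter A,
      ← Finset.prod_ite_mem]
    apply Finset.prod_congr rfl
    intro i _
    by_cases h1 : i ∈ A <;> by_cases h2 : i ∈ B <;> cases h : c i <;> simp [cls, h1, h2, h]
  simp only [h4]
  rw [← h3, T_eq_prod, ← Finset.univ_inter A, ← Finset.prod_ite_mem]
  apply Finset.prod_congr rfl
  intro i _
  by_cases h1 : i ∈ A <;> by_cases h2 : i ∈ B <;> simp [h1, h2] <;> ring

lemma I1 (B A : Finset ι) (u : ℝ) :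
    ∑ c : ι → Bool, ((2 : ℝ) ^ Fintype.card ι)⁻¹ * (r (cls B c true) A * T (cls B c false) u A)
      = T1 B (u / 2) A / 2 := by
  have h1 : HasDerivAt (fun a : ℝ => ∑ c : ι → Bool, ((2 : ℝ) ^ Fintype.card ι)⁻¹ *
      (T (cls B c true) a A * T (cls B c false) u A))
      (∑ c : ι → Bool, ((2 : ℝ) ^ Fintype.card ι)⁻¹ *
      (T1 (cls B c true) 0 A * T (cls B c false) u A)) 0 := by
    apply HasDerivAt.fun_sum
    intro c _
    exact ((hasDerivAt_T _ _ 0).mul_const _).const_mul _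
  have h2 : HasDerivAt (fun a : ℝ => T B ((a + u) / 2) A) (T1 B ((0 + u) / 2) A * (1 / 2)) 0 := by
    have h3 : HasDerivAt (fun a : ℝ => (a + u) / 2) (1 / 2) 0 :=
      ((hasDerivAt_id (0 : ℝ)).add_const u).div_const 2
    exact (hasDerivAt_T B A ((0 + u) / 2)).comp (0 : ℝ) h3
  simp only [I0] at h1
  have := h1.unique h2
  simp only [T1_zero, zero_add] at this
  rw [this]; ring

lemma I2 (B A : Finset ι) (u : ℝ) :
    ∑ c : ι → Bool, ((2 : ℝ) ^ Fintype.card ι)⁻¹ * (r (cls B c true) A * T1 (cls B c false) u A)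
      = T2 B (u / 2) A / 4 := by
  have h1 : HasDerivAt (fun u : ℝ => ∑ c : ι → Bool, ((2 : ℝ) ^ Fintype.card ι)⁻¹ *
      (r (cls B c true) A * T (cls B c false) u A))
      (∑ c : ι → Bool, ((2 : ℝ) ^ Fintype.card ι)⁻¹ *
      (r (cls B c true) A * T1 (cls B c false) u A)) u := by
    apply HasDerivAt.fun_sum
    intro c _
    exact ((hasDerivAt_T _ _ u).const_mul _).const_mul _
  have h2 : HasDerivAt (fun u : ℝ => T1 B (u / 2) A / 2) (T2 B (u / 2) A * (1 / 2) / 2) u := by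
    have h3 : HasDerivAt (fun a : ℝ => a / 2) (1 / 2) u := (hasDerivAt_id u).div_const 2
    exact ((hasDerivAt_T1 B A (u / 2)).comp u h3).div_const 2
  simp only [I1] at h1
  have := h1.unique h2
  rw [this]; ring

lemma sum_abs_inv : ∑ _c : ι → Bool, |((2 : ℝ) ^ Fintype.card ι)⁻¹| = 1 := by
  have h2 : ((2 : ℝ) ^ Fintype.card ι) ≠ 0 := by positivity
  rw [abs_of_pos (by positivity), Finset.sum_const, Finset.card_univ, Fintype.card_fun,
    Fintype.card_bool, nsmul_eq_mul]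
  push_cast
  field_simp

lemma Bd.smul {φ : Finset ι → ℝ} {c : ℝ} (h : Bd X φ c) {a : ℝ} (ha : 0 ≤ a) :
    Bd X (fun A => a * φ A) (a * c) := by
  intro f
  rw [M_smul, norm_smul, Real.norm_eq_abs, abs_of_nonneg ha, mul_assoc]
  exact mul_le_mul_of_nonneg_left (h f) ha

lemma Bd_T1 {K : ℝ} (hK0 : 0 ≤ K) (hK : ∀ B : Finset ι, Bd X (r B) K) (B : Finset ι) {s : ℝ}
    (hs : |s| ≤ 1 / 2) : Bd X (T1 B s) (2 * K) := by
  have hs' : |2 * s| ≤ 1 := by rw [abs_mul, abs_two]; linarith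
  have h := Bd_sum (X := X) Finset.univ (fun _ : ι → Bool => ((2 : ℝ) ^ Fintype.card ι)⁻¹)
    (fun c A => r (cls B c true) A * T (cls B c false) (2 * s) A) (K * 1)
    (fun c _ => (hK _).mul (Bd_T _ hs') hK0)
  rw [sum_abs_inv, one_mul, mul_one] at h
  refine Bd_congr (h.smul (a := 2) (by norm_num)) ?_
  intro A
  rw [I1]
  have : 2 * s / 2 = s := by ring
  rw [this]; ring

lemma Bd_T2 {K : ℝ} (hK0 : 0 ≤ K) (hK : ∀ B : Finset ι, Bd X (r B) K) (B : Finset ι) {s : ℝ}
    (hs : |s| ≤ 1 / 4) : Bd X (T2 B s) (8 * K ^ 2) := by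
  have hs' : |2 * s| ≤ 1 / 2 := by rw [abs_mul, abs_two]; linarith
  have h := Bd_sum (X := X) Finset.univ (fun _ : ι → Bool => ((2 : ℝ) ^ Fintype.card ι)⁻¹)
    (fun c A => r (cls B c true) A * T1 (cls B c false) (2 * s) A) (K * (2 * K))
    (fun c _ => (hK _).mul (Bd_T1 hK0 hK _ hs') hK0)
  rw [sum_abs_inv, one_mul] at h
  refine (Bd_congr (h.smul (a := 4) (by norm_num)) ?_).mono (le_of_eq (by ring))
  intro A
  rw [I2]
  have : 2 * s / 2 = s := by ring
  rw [this]; ring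

lemma hasDerivAt_M {φ φ' : ℝ → Finset ι → ℝ} (s : ℝ)
    (h : ∀ A, HasDerivAt (fun s => φ s A) (φ' s A) s) (f : L ι X) :
    HasDerivAt (fun s => M (φ s) f) (M (φ' s) f) s := by
  unfold M
  apply HasDerivAt.fun_sum
  intro A _
  exact (h A).smul_const _

/-- Taylor estimate. -/
lemma taylor {K : ℝ} (hK0 : 0 ≤ K) (hK : ∀ B : Finset ι, Bd X (r B) K) (B : Finset ι) {t : ℝ}
    (ht0 : 0 ≤ t) (ht : t ≤ 1 / 4) (f : L ι X) :
    ‖M (T B t) f - M (T B 0) f - t • M (r B) f‖ ≤ 8 * K ^ 2 * t ^ 2 * ‖f‖ := by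
  have h1 : ∀ s ∈ Set.Icc (0 : ℝ) t, ‖M (T1 B s) f - M (T1 B 0) f‖ ≤ (8 * K ^ 2 * ‖f‖) * (s - 0) := by
    apply norm_image_sub_le_of_norm_deriv_le_segment' (f := fun s => M (T1 B s) f)
      (f' := fun s => M (T2 B s) f)
    · intro s _
      exact (hasDerivAt_M s (fun A => hasDerivAt_T1 B A s) f).hasDerivWithinAt
    · intro s hs
      exact Bd_T2 hK0 hK B (by rw [abs_of_nonneg hs.1]; linarith [hs.2]) f
  have h2 := norm_image_sub_le_of_norm_deriv_le_segment'
    (f := fun s => M (T B s) f - s • M (T1 B 0) f)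
    (f' := fun s => M (T1 B s) f - M (T1 B 0) f) (a := 0) (b := t) (C := 8 * K ^ 2 * ‖f‖ * t)
    (by
      intro s _
      have h3 := (hasDerivAt_M s (fun A => hasDerivAt_T B A s) f)
      have h4 : HasDerivAt (fun s : ℝ => s • M (T1 B 0) f) (M (T1 B 0) f) s := by
        simpa using (hasDerivAt_id s).smul_const (M (T1 B 0) f)
      exact (h3.fun_sub h4).hasDerivWithinAt)
    (by
      intro s hs
      refine (h1 s ⟨hs.1, hs.2.le⟩).trans ?_
      apply mul_le_mul_of_nonneg_left (by linarith [hs.2]) (by positivity))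
    t ⟨ht0, le_rfl⟩
  have h5 : T1 B 0 = r B := funext (T1_zero B)
  rw [h5] at h2
  simp only [zero_smul, sub_zero] at h2
  calc _ = ‖M (T B t) f - t • M (r B) f - M (T B 0) f‖ := by congr 1; abel
    _ ≤ _ := h2
    _ = _ := by ring

end Crest.Agent.R118P
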