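import Crest.Agent.R118P.Noise

/-!
Pisier's K-convexity theorem (quantitative B-convexity implies K-convexity), by random blocks.
-/

set_option autoImplicit false
set_option linter.unusedSectionVars false

namespace Crest.Agent.R118P

open Finset Crest.AnalysisR

variable {ι : Type*} [Fintype ι] [DecidableEq ι]
variable {X : Type*} [NormedAddCommGroup X] [NormedSpace ℝ X]

/-- odd part in the block `B` -/
noncomputable def od (B : Finset ι) (A : Finset ι) : ℝ := if Odd (A ∩ B).card then 1 else 0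

lemma Bd_od (B : Finset ι) : Bd X (od B) 1 := by
  have h := Bd_sum (X := X) Finset.univ (fun b : Bool => signVal b / 2)
    (fun b A => T B (signVal b) A) 1 (fun b _ => Bd_T B (by rw [abs_sv]))
  have h1 : (∑ b : Bool, |signVal b / 2|) = 1 := by
    simp only [abs_div, abs_sv]; simp
  rw [h1, one_mul] at h
  refine Bd_congr h ?_
  intro A
  unfold od T
  rcases Nat.even_or_odd (A ∩ B).card with he | ho
  · rw [if_neg (Nat.not_odd_iff_even.mpr he)]
    simp [signVal, he.neg_one_pow]; ring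
  · rw [if_pos ho]
    simp [signVal, ho.neg_one_pow]; ring

/-- conditional expectation keeping, inside `B`, only the coordinates of colour `b` -/
noncomputable def nb {m : ℕ} (B : Finset ι) (c : ι → Fin m) (b : Fin m) (A : Finset ι) : ℝ :=
  ∏ i ∈ A, if i ∈ B then (if c i = b then 1 else 0) else 1

lemma Bd_nb {m : ℕ} (B : Finset ι) (c : ι → Fin m) (b : Fin m) : Bd X (nb B c b) 1 := by
  apply Bd_prod
  intro i; split_ifs <;> simp

lemma avg_nb {m : ℕ} (hm : 0 < m) (B : Finset ι) (b : Fin m) (A : Finset ι) :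
    ∑ c : ι → Fin m, ((m : ℝ) ^ Fintype.card ι)⁻¹ * nb B c b A = T B (1 / m) A := by
  have hm' : (m : ℝ) ≠ 0 := by positivity
  have h3 := Finset.prod_univ_sum (fun _ : ι => (Finset.univ : Finset (Fin m)))
      (fun i a => (m : ℝ)⁻¹ * (if i ∈ A then (if i ∈ B then (if a = b then 1 else 0) else 1) else 1))
  simp only [Fintype.piFinset_univ] at h3
  have h4 : ∀ c : ι → Fin m, ((m : ℝ) ^ Fintype.card ι)⁻¹ * nb B c b A
      = ∏ i, (m : ℝ)⁻¹ *
        (if i ∈ A then (if i ∈ B then (if c i = b then 1 else 0) else 1) else 1) := by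
    intro c
    rw [Finset.prod_mul_distrib, Finset.prod_const, inv_pow, Finset.card_univ,
      Finset.prod_ite_mem, Finset.univ_inter, nb]
  simp only [h4]
  rw [← h3, T_eq_prod, ← Finset.univ_inter A, ← Finset.prod_ite_mem]
  apply Finset.prod_congr rfl
  intro i _
  by_cases h1 : i ∈ A <;> by_cases h2 : i ∈ B <;> simp [h1, h2, hm']

lemma w_nb_od {m : ℕ} (B : Finset ι) (c : ι → Fin m) (b : Fin m) (δ : Fin m → Bool)
    (A : Finset ι) :
    w A (fun i => if i ∈ B then δ (c i) else true) * (nb B c b A * od B A)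
      = signVal (δ b) * (nb B c b A * od B A) := by
  by_cases ho : Odd (A ∩ B).card
  · have h1 : w A (fun i => if i ∈ B then δ (c i) else true) * nb B c b A
        = T B (signVal (δ b)) A * nb B c b A := by
      rw [T_eq_prod, w, nb, ← Finset.prod_mul_distrib, ← Finset.prod_mul_distrib]
      apply Finset.prod_congr rfl
      intro i _
      by_cases h2 : i ∈ B
      · by_cases h3 : c i = b <;> simp [h2, h3]
      · simp [h2, signVal]
    have h2 : T B (signVal (δ b)) A = signVal (δ b) := by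
      unfold T
      cases δ b
      · simp [signVal, ho.neg_one_pow]
      · simp [signVal]
    rw [← mul_assoc, h1, h2, mul_assoc]
  · simp [od, ho]

lemma signAverage_const {s : ℕ} (a : ℝ) : signAverage (fun _ : Fin s → Bool => a) = a := by
  have h2 : ((2 : ℝ) ^ s) ≠ 0 := by positivity
  simp only [signAverage, Finset.sum_const, Finset.card_univ, Fintype.card_fun, Fintype.card_bool,
    Fintype.card_fin, nsmul_eq_mul]
  push_cast
  field_simp

lemma Bd_block {m : ℕ} {τ : ℝ} (hτ : 0 ≤ τ)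
    (h : ∀ x : Fin m → X, signAverage (fun ε : Fin m → Bool => ‖∑ i, signVal (ε i) • x i‖ ^ 2)
      ≤ τ ^ 2 * m * ∑ i, ‖x i‖ ^ 2)
    (B : Finset ι) (c : ι → Fin m) :
    Bd X (fun A => ∑ b, 1 * (nb B c b A * od B A)) (τ * m) := by
  intro f
  set hb : Fin m → L ι X := fun b => M (fun A => nb B c b A * od B A) f with hhb
  have hbn : ∀ b, ‖hb b‖ ≤ ‖f‖ := by
    intro b
    have := ((Bd_nb (X := X) B c b).mul (Bd_od B) zero_le_one) f
    simpa using this
  have h1 : ∀ δ : Fin m → Bool, ‖M (fun A => ∑ b, 1 * (nb B c b A * od B A)) f‖ ^ 2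
      = ∑ ε, ‖∑ b, signVal (δ b) • hb b ε‖ ^ 2 := by
    intro δ
    rw [← norm_M_w (fun i => if i ∈ B then δ (c i) else true), M_M]
    have : (fun A => w A (fun i => if i ∈ B then δ (c i) else true) *
        ∑ b, 1 * (nb B c b A * od B A))
        = fun A => ∑ b, signVal (δ b) * (nb B c b A * od B A) := by
      funext A
      rw [Finset.mul_sum]
      apply Finset.sum_congr rfl
      intro b _
      rw [one_mul, w_nb_od]
    rw [this, M_sum, norm_sq_L]
    simp only [hhb, WithLp.ofLp_sum, Finset.sum_apply, WithLp.ofLp_smul, Pi.smul_apply]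
  have h2 : ‖M (fun A => ∑ b, 1 * (nb B c b A * od B A)) f‖ ^ 2 ≤ (τ * m * ‖f‖) ^ 2 := by
    calc _ = signAverage (fun δ : Fin m → Bool => ∑ ε, ‖∑ b, signVal (δ b) • hb b ε‖ ^ 2) := by
          simp only [← h1]; rw [signAverage_const]
      _ = ∑ ε, signAverage (fun δ : Fin m → Bool => ‖∑ b, signVal (δ b) • hb b ε‖ ^ 2) := by
          simp only [signAverage]
          rw [Finset.sum_comm, Finset.mul_sum]
      _ ≤ ∑ ε, τ ^ 2 * m * ∑ b, ‖hb b ε‖ ^ 2 := Finset.sum_le_sum fun ε _ => h _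
      _ = τ ^ 2 * m * ∑ b, ‖hb b‖ ^ 2 := by
          rw [← Finset.mul_sum, Finset.sum_comm]
          simp only [norm_sq_L]
      _ ≤ τ ^ 2 * m * ∑ _b : Fin m, ‖f‖ ^ 2 := by
          apply mul_le_mul_of_nonneg_left _ (by positivity)
          exact Finset.sum_le_sum fun b _ => pow_le_pow_left₀ (norm_nonneg _) (hbn b) 2
      _ = _ := by simp; ring
  exact (pow_le_pow_iff_left₀ (norm_nonneg _) (by positivity) two_ne_zero).mp h2

lemma Bd_step {m : ℕ} (hm : 4 ≤ m) {τ : ℝ} (hτ : 0 ≤ τ)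
    (h : ∀ x : Fin m → X, signAverage (fun ε : Fin m → Bool => ‖∑ i, signVal (ε i) • x i‖ ^ 2)
      ≤ τ ^ 2 * m * ∑ i, ‖x i‖ ^ 2)
    {K : ℝ} (hK0 : 0 ≤ K) (hK : ∀ B : Finset ι, Bd X (r B) K) (B : Finset ι) :
    Bd X (r B) (τ * m + 8 * K ^ 2 / m) := by
  have hm0 : (0 : ℝ) < m := by positivity
  have hm4 : (4 : ℝ) ≤ m := by exact_mod_cast hm
  intro f
  set g := M (od B) f with hg
  have hgn : ‖g‖ ≤ ‖f‖ := by simpa using Bd_od (X := X) B f
  have e1 : M (r B) g = M (r B) f := by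
    rw [hg, M_M]; congr 1; funext A
    unfold r od
    split_ifs with h1 h2
    · simp
    · rw [h1] at h2; simp at h2
    · simp
    · simp
  have e0 : M (T B 0) g = 0 := by
    rw [hg, M_M, ← M_zero f]; congr 1; funext A
    unfold T od
    split_ifs with h2
    · rw [zero_pow (by rintro h0; rw [h0] at h2; simp at h2), zero_mul]
    · simp
  have ht := taylor hK0 hK B (t := 1 / m) (by positivity)
    (by rw [div_le_div_iff₀ hm0 (by norm_num)]; linarith) g
  rw [e0, e1, sub_zero] at ht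
  have hB := Bd_sum (X := X) Finset.univ (fun _ : ι → Fin m => ((m : ℝ) ^ Fintype.card ι)⁻¹)
    (fun c A => ∑ b, 1 * (nb B c b A * od B A)) (τ * m) (fun c _ => Bd_block hτ h B c)
  have hs : (∑ _c : ι → Fin m, |((m : ℝ) ^ Fintype.card ι)⁻¹|) = 1 := by
    rw [abs_of_pos (by positivity), Finset.sum_const, Finset.card_univ, Fintype.card_fun,
      Fintype.card_fin, nsmul_eq_mul]
    push_cast
    field_simp
  rw [hs, one_mul] at hB
  have hB' : Bd X (fun A => (m : ℝ) * (T B (1 / m) A * od B A)) (τ * m) := by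
    refine Bd_congr hB ?_
    intro A
    simp only [one_mul, Finset.mul_sum]
    rw [Finset.sum_comm]
    have : ∀ b : Fin m, ∑ c : ι → Fin m, ((m : ℝ) ^ Fintype.card ι)⁻¹ * (nb B c b A * od B A)
        = T B (1 / m) A * od B A := by
      intro b
      rw [← avg_nb (by omega) B b A, Finset.sum_mul]
      simp only [mul_assoc]
    simp only [this]
    simp
  have h3 := hB' f
  rw [M_smul, ← M_M, ← hg] at h3
  have e2 : M (r B) f = (m : ℝ) • M (T B (1 / m)) g
      - (m : ℝ) • (M (T B (1 / m)) g - (1 / m : ℝ) • M (r B) f) := by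
    rw [smul_sub, smul_smul, mul_one_div_cancel hm0.ne', one_smul]; abel
  rw [e2]
  refine (norm_sub_le _ _).trans ?_
  rw [norm_smul (m : ℝ) (_ - _), Real.norm_eq_abs, abs_of_pos hm0]
  have h4 : (m : ℝ) * ‖M (T B (1 / m)) g - (1 / m : ℝ) • M (r B) f‖ ≤ 8 * K ^ 2 / m * ‖f‖ := by
    calc _ ≤ (m : ℝ) * (8 * K ^ 2 * (1 / m) ^ 2 * ‖f‖) := by
          apply mul_le_mul_of_nonneg_left _ hm0.le
          exact ht.trans (mul_le_mul_of_nonneg_left hgn (by positivity))
      _ = _ := by field_simp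
  have h5 : ‖(m : ℝ) • M (fun A => T B (1 / m) A) g‖ ≤ τ * m * ‖f‖ := h3
  linarith

lemma Bd_improve (J0 : ℕ)
    (h : ∀ J, J0 ≤ J → ∀ x : Fin (2 ^ J) → X,
      signAverage (fun ε : Fin (2 ^ J) → Bool => ‖∑ i, signVal (ε i) • x i‖ ^ 2)
        ≤ (1 / 128) ^ 2 * 2 ^ J * ∑ i, ‖x i‖ ^ 2)
    {K : ℝ} (hK1 : (2 : ℝ) ^ J0 ≤ K) (hK : ∀ B : Finset ι, Bd X (r B) K) (B : Finset ι) :
    Bd X (r B) (3 / 4 * K) := by
  have h1 : (1 : ℝ) ≤ 2 ^ J0 := one_le_pow₀ (by norm_num)
  have hK0 : 1 ≤ K := h1.trans hK1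
  obtain ⟨J, hJ1, hJ2⟩ := exists_nat_pow_near (x := 64 * K) (y := 2) (by linarith) (by norm_num)
  have hJ3 : 32 * K < 2 ^ J := by rw [pow_succ] at hJ2; linarith
  have hJ0 : J0 ≤ J := by
    have : (2 : ℝ) ^ J0 < 2 ^ J := by linarith
    exact ((pow_lt_pow_iff_right₀ (by norm_num)).mp this).le
  have hm : 4 ≤ 2 ^ J := by
    have : (4 : ℝ) ≤ 2 ^ J := by linarith
    exact_mod_cast this
  have h2 := Bd_step (ι := ι) (X := X) (m := 2 ^ J) hm (τ := 1 / 128) (by norm_num)
    (by intro x; have := h J hJ0 x; push_cast; exact this) (by linarith) hK B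
  refine h2.mono ?_
  push_cast
  have h3 : 8 * K ^ 2 / 2 ^ J ≤ K / 4 := by
    rw [div_le_iff₀ (by positivity)]; nlinarith
  linarith

lemma Bd_final (J0 : ℕ)
    (h : ∀ J, J0 ≤ J → ∀ x : Fin (2 ^ J) → X,
      signAverage (fun ε : Fin (2 ^ J) → Bool => ‖∑ i, signVal (ε i) • x i‖ ^ 2)
        ≤ (1 / 128) ^ 2 * 2 ^ J * ∑ i, ‖x i‖ ^ 2) (B : Finset ι) :
    Bd X (r B) (2 ^ J0) := by
  have h0 : ∃ c : ℝ, ∀ B : Finset ι, Bd X (r B) c := by
    choose c hc using fun B : Finset ι => exists_Bd (X := X) (r B)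
    refine ⟨∑ B, |c B|, fun B => (hc B).mono ((le_abs_self _).trans ?_)⟩
    exact Finset.single_le_sum (f := fun B => |c B|) (fun _ _ => abs_nonneg _) (Finset.mem_univ B)
  obtain ⟨c, hc⟩ := h0
  have h1 : ∀ k : ℕ, ∀ B : Finset ι, Bd X (r B) (max (2 ^ J0) ((3 / 4) ^ k * c)) := by
    intro k
    induction k with
    | zero => intro B; exact (hc B).mono (by simp)
    | succ k ih =>
      intro B
      rcases le_total ((3 / 4 : ℝ) ^ k * c) (2 ^ J0) with h2 | h2
      · rw [max_eq_left h2] at ih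
        exact (ih B).mono (le_max_left _ _)
      · rw [max_eq_right h2] at ih
        refine (Bd_improve J0 h h2 ih B).mono ?_
        refine le_trans (le_of_eq ?_) (le_max_right _ _)
        ring
  have h2 : Filter.Tendsto (fun k : ℕ => (3 / 4 : ℝ) ^ k * c) Filter.atTop (nhds (0 * c)) :=
    (tendsto_pow_atTop_nhds_zero_of_lt_one (by norm_num) (by norm_num)).mul_const c
  rw [zero_mul] at h2
  obtain ⟨k, hk⟩ := (h2.eventually (gt_mem_nhds (show (0 : ℝ) < 2 ^ J0 by positivity))).exists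
  have := h1 k B
  rwa [max_eq_left hk.le] at this

/-- **Pisier's theorem**, in the quantitative form used for row 118. -/
theorem isKConvex_of_typeDecay (X : Type*) [NormedAddCommGroup X] [NormedSpace ℝ X] (J0 : ℕ)
    (h : ∀ J, J0 ≤ J → ∀ x : Fin (2 ^ J) → X,
      signAverage (fun ε : Fin (2 ^ J) → Bool => ‖∑ i, signVal (ε i) • x i‖ ^ 2)
        ≤ (1 / 128) ^ 2 * 2 ^ J * ∑ i, ‖x i‖ ^ 2) : IsKConvex X := by
  refine ⟨2 ^ J0, fun s f => ?_⟩
  have h1 := Bd_final (ι := Fin s) J0 h Finset.univ (WithLp.toLp 2 f)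
  have h2 := pow_le_pow_left₀ (norm_nonneg _) h1 2
  rw [mul_pow, norm_sq_L, norm_sq_L] at h2
  have h3 : ∀ ε : Fin s → Bool, M (r Finset.univ) (WithLp.toLp 2 f : L (Fin s) X) ε
      = ∑ i : Fin s, signVal (ε i) •
            (((2 : ℝ) ^ s)⁻¹ • ∑ η : Fin s → Bool, signVal (η i) • f η) := by
    intro ε
    rw [M_apply]
    have h4 : ∀ A : Finset (Fin s), (r Finset.univ A * w A ε) • coef A (WithLp.toLp 2 f : L (Fin s) X)
        = if A ∈ (Finset.univ : Finset (Fin s)).map ⟨fun i => {i}, Finset.singleton_injective⟩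
          then w A ε • coef A (WithLp.toLp 2 f : L (Fin s) X) else 0 := by
      intro A
      unfold r
      rw [Finset.inter_univ]
      by_cases hA : A.card = 1
      · rw [if_pos hA, if_pos, one_mul]
        obtain ⟨i, rfl⟩ := Finset.card_eq_one.mp hA
        simp
      · rw [if_neg hA, if_neg, zero_mul, zero_smul]
        intro hc
        obtain ⟨i, _, rfl⟩ := Finset.mem_map.mp hc
        simp at hA
    simp only [h4]
    rw [Finset.sum_ite_mem, Finset.univ_inter, Finset.sum_map]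
    simp [w, coef]
  simp only [h3] at h2
  simp only [signAverage, Real.rpow_two]
  rw [mul_left_comm]
  exact mul_le_mul_of_nonneg_left h2 (by positivity)

end Crest.Agent.R118P
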