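import Mathlib
import Crest.Prelude.Def_Rademacher

/-!
Vector-valued Walsh multipliers on the discrete cube.
-/

set_option autoImplicit false
set_option linter.unusedSectionVars false

namespace Crest.Agent.R118P

open Finset Crest.AnalysisR

lemma sv_mul_self (b : Bool) : signVal b * signVal b = 1 := by cases b <;> simp [signVal]
lemma sv_beq (a b : Bool) : signVal (a == b) = signVal a * signVal b := by
  cases a <;> cases b <;> simp [signVal]
lemma abs_sv (b : Bool) : |signVal b| = 1 := by cases b <;> simp [signVal]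

variable {ι : Type*} [Fintype ι] [DecidableEq ι]

/-- Walsh character. -/
noncomputable def w (A : Finset ι) (ε : ι → Bool) : ℝ := ∏ i ∈ A, signVal (ε i)

/-- Product of sign vectors. -/
def mulB (θ ε : ι → Bool) : ι → Bool := fun i => θ i == ε i

lemma w_mulB (A : Finset ι) (θ ε : ι → Bool) : w A (mulB θ ε) = w A θ * w A ε := by
  simp only [w, mulB, sv_beq, Finset.prod_mul_distrib]

lemma mulB_mulB (θ ε : ι → Bool) : mulB θ (mulB θ ε) = ε := by
  funext i; simp only [mulB]; cases θ i <;> cases ε i <;> rfl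

/-- translation as an equivalence -/
def mulE (θ : ι → Bool) : (ι → Bool) ≃ (ι → Bool) :=
  ⟨mulB θ, mulB θ, mulB_mulB θ, mulB_mulB θ⟩

lemma sum_w_w (ε η : ι → Bool) :
    ∑ A : Finset ι, w A ε * w A η = if ε = η then (2 : ℝ) ^ Fintype.card ι else 0 := by
  have h : ∑ A : Finset ι, w A ε * w A η = ∏ i : ι, (1 + signVal (ε i) * signVal (η i)) := by
    rw [Finset.prod_one_add]
    simp only [w, Finset.prod_mul_distrib, Finset.powerset_univ]
  rw [h]
  split_ifs with he
  · subst he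
    simp only [sv_mul_self]
    norm_num
  · obtain ⟨i, hi⟩ := Function.ne_iff.mp he
    apply Finset.prod_eq_zero (Finset.mem_univ i)
    revert hi; cases ε i <;> cases η i <;> simp [signVal]

lemma w_eq_prod_univ (A : Finset ι) (ε : ι → Bool) :
    w A ε = ∏ i, if i ∈ A then signVal (ε i) else 1 := by
  rw [w, Finset.prod_ite_mem, Finset.univ_inter]

lemma sum_w_orth (A B : Finset ι) :
    ∑ ε : ι → Bool, w A ε * w B ε = if A = B then (2 : ℝ) ^ Fintype.card ι else 0 := by
  have h : ∑ ε : ι → Bool, w A ε * w B ε =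
      ∏ i : ι, ∑ b : Bool, (if i ∈ A then signVal b else 1) * (if i ∈ B then signVal b else 1) := by
    rw [Finset.prod_univ_sum]
    simp only [Fintype.piFinset_univ, w_eq_prod_univ, Finset.prod_mul_distrib]
  rw [h]
  split_ifs with he
  · subst he
    have : ∀ i : ι, ∑ b : Bool, (if i ∈ A then signVal b else 1) * (if i ∈ A then signVal b else 1)
        = (2 : ℝ) := by
      intro i; by_cases hi : i ∈ A <;> simp [hi, signVal] <;> norm_num
    simp only [this]; simp
  · have : ∃ i, ¬ (i ∈ A ↔ i ∈ B) := by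
      by_contra hc
      push Not at hc
      exact he (Finset.ext hc)
    obtain ⟨i, hi⟩ := this
    apply Finset.prod_eq_zero (Finset.mem_univ i)
    by_cases h1 : i ∈ A <;> by_cases h2 : i ∈ B <;> simp_all [signVal]

variable {X : Type*} [NormedAddCommGroup X] [NormedSpace ℝ X]

/-- The space `ℓ²(cube; X)`. -/
abbrev L (ι : Type*) (X : Type*) := PiLp 2 (fun _ : (ι → Bool) => X)

/-- Walsh coefficient. -/
noncomputable def coef (A : Finset ι) (f : L ι X) : X :=
  ((2 : ℝ) ^ Fintype.card ι)⁻¹ • ∑ η : ι → Bool, w A η • f η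

/-- Walsh component. -/
noncomputable def P (A : Finset ι) (f : L ι X) : L ι X :=
  WithLp.toLp 2 (fun ε => w A ε • coef A f)

/-- Walsh multiplier. -/
noncomputable def M (φ : Finset ι → ℝ) (f : L ι X) : L ι X := ∑ A, φ A • P A f

lemma M_apply (φ : Finset ι → ℝ) (f : L ι X) (ε : ι → Bool) :
    M φ f ε = ∑ A, (φ A * w A ε) • coef A f := by
  simp only [M, P, WithLp.ofLp_sum, Finset.sum_apply, WithLp.ofLp_smul, Pi.smul_apply, mul_smul]

lemma coef_M (ψ : Finset ι → ℝ) (f : L ι X) (A : Finset ι) :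
    coef A (M ψ f) = ψ A • coef A f := by
  have h2 : ((2 : ℝ) ^ Fintype.card ι) ≠ 0 := by positivity
  conv_lhs => unfold coef
  simp only [M_apply, Finset.smul_sum, smul_smul]
  rw [Finset.sum_comm]
  simp only [← Finset.sum_smul]
  have : ∀ B : Finset ι, ∑ η : ι → Bool, ((2 : ℝ) ^ Fintype.card ι)⁻¹ * (w A η * (ψ B * w B η))
      = if A = B then ψ B else 0 := by
    intro B
    have := sum_w_orth A B
    calc _ = ((2 : ℝ) ^ Fintype.card ι)⁻¹ * ψ B * ∑ η : ι → Bool, w A η * w B η := by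
          rw [Finset.mul_sum]; apply Finset.sum_congr rfl; intro η _; ring
      _ = _ := by rw [this]; split_ifs <;> field_simp <;> simp
  simp only [this, ite_smul, zero_smul, Finset.sum_ite_eq, Finset.mem_univ, if_true]

lemma M_M (φ ψ : Finset ι → ℝ) (f : L ι X) : M φ (M ψ f) = M (fun A => φ A * ψ A) f := by
  ext ε
  simp only [M_apply, coef_M, smul_smul]
  apply Finset.sum_congr rfl; intro A _; congr 1; ring

lemma M_w_apply (θ : ι → Bool) (f : L ι X) (ε : ι → Bool) :
    M (fun A => w A θ) f ε = f (mulB θ ε) := by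
  have h2 : ((2 : ℝ) ^ Fintype.card ι) ≠ 0 := by positivity
  simp only [M_apply, coef, Finset.smul_sum, smul_smul, ← w_mulB]
  rw [Finset.sum_comm]
  simp only [← Finset.sum_smul]
  have : ∀ η : ι → Bool, ∑ A : Finset ι, w A (mulB θ ε) * (((2 : ℝ) ^ Fintype.card ι)⁻¹ * w A η)
      = if mulB θ ε = η then 1 else 0 := by
    intro η
    have := sum_w_w (mulB θ ε) η
    calc _ = ((2 : ℝ) ^ Fintype.card ι)⁻¹ * ∑ A : Finset ι, w A (mulB θ ε) * w A η := by
          rw [Finset.mul_sum]; apply Finset.sum_congr rfl; intro η _; ring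
      _ = _ := by rw [this]; split_ifs <;> field_simp <;> simp
  simp only [this, ite_smul, zero_smul, one_smul, Finset.sum_ite_eq, Finset.mem_univ, if_true]

lemma norm_sq_L (f : L ι X) : ‖f‖ ^ 2 = ∑ ε, ‖f ε‖ ^ 2 := PiLp.norm_sq_eq_of_L2 _ f

lemma norm_M_w (θ : ι → Bool) (f : L ι X) : ‖M (fun A => w A θ) f‖ = ‖f‖ := by
  have h : ‖M (fun A => w A θ) f‖ ^ 2 = ‖f‖ ^ 2 := by
    rw [norm_sq_L, norm_sq_L]
    simp only [M_w_apply]
    exact Equiv.sum_comp (mulE θ) (fun ε => ‖f ε‖ ^ 2)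
  exact (sq_eq_sq₀ (norm_nonneg _) (norm_nonneg _)).mp h

lemma M_sum {κ : Type*} (s : Finset κ) (a : κ → ℝ) (φ : κ → Finset ι → ℝ) (f : L ι X) :
    M (fun A => ∑ k ∈ s, a k * φ k A) f = ∑ k ∈ s, a k • M (φ k) f := by
  simp only [M, Finset.sum_smul, Finset.smul_sum, mul_smul]
  exact Finset.sum_comm

lemma M_sub (φ ψ : Finset ι → ℝ) (f : L ι X) :
    M (fun A => φ A - ψ A) f = M φ f - M ψ f := by
  simp only [M, sub_smul, Finset.sum_sub_distrib]

lemma M_smul (a : ℝ) (φ : Finset ι → ℝ) (f : L ι X) :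
    M (fun A => a * φ A) f = a • M φ f := by
  simp only [M, mul_smul, Finset.smul_sum]

lemma M_zero (f : L ι X) : M (fun _ => 0) f = 0 := by simp [M]

variable (X) in
/-- `M φ` is bounded by `c`. -/
def Bd (φ : Finset ι → ℝ) (c : ℝ) : Prop := ∀ f : L ι X, ‖M φ f‖ ≤ c * ‖f‖

lemma Bd.mono {φ : Finset ι → ℝ} {c d : ℝ} (h : Bd X φ c) (hcd : c ≤ d) : Bd X φ d :=
  fun f => (h f).trans (mul_le_mul_of_nonneg_right hcd (norm_nonneg _))

lemma Bd.mul {φ ψ : Finset ι → ℝ} {c d : ℝ} (h : Bd X φ c) (h' : Bd X ψ d) (hc : 0 ≤ c) :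
    Bd X (fun A => φ A * ψ A) (c * d) := by
  intro f
  rw [← M_M, mul_assoc]
  exact (h _).trans (mul_le_mul_of_nonneg_left (h' f) hc)

lemma Bd_sum {κ : Type*} (s : Finset κ) (a : κ → ℝ) (φ : κ → Finset ι → ℝ) (c : ℝ)
    (h : ∀ k ∈ s, Bd X (φ k) c) :
    Bd X (fun A => ∑ k ∈ s, a k * φ k A) ((∑ k ∈ s, |a k|) * c) := by
  intro f
  rw [M_sum, Finset.sum_mul, Finset.sum_mul]
  refine (norm_sum_le _ _).trans (Finset.sum_le_sum fun k hk => ?_)
  rw [norm_smul, Real.norm_eq_abs, mul_assoc]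
  exact mul_le_mul_of_nonneg_left (h k hk f) (abs_nonneg _)

lemma Bd_w (θ : ι → Bool) : Bd X (fun A => w A θ) 1 := by
  intro f; rw [norm_M_w, one_mul]

lemma Bd_congr {φ ψ : Finset ι → ℝ} {c : ℝ} (h : Bd X φ c) (he : ∀ A, φ A = ψ A) : Bd X ψ c := by
  have : φ = ψ := funext he
  rwa [← this]

/-- every multiplier is bounded -/
lemma exists_Bd (φ : Finset ι → ℝ) : ∃ c, Bd X φ c := by
  have h2 : ((2 : ℝ) ^ Fintype.card ι) ≠ 0 := by positivity
  refine ⟨_, Bd_congr (Bd_sum Finset.univ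
    (fun θ : ι → Bool => ((2 : ℝ) ^ Fintype.card ι)⁻¹ * ∑ B, φ B * w B θ)
    (fun θ A => w A θ) 1 (fun θ _ => Bd_w θ)) ?_⟩
  intro A
  simp only [Finset.mul_sum, Finset.sum_mul]
  rw [Finset.sum_comm]
  have : ∀ B : Finset ι, ∑ θ : ι → Bool, ((2 : ℝ) ^ Fintype.card ι)⁻¹ * (φ B * w B θ) * w A θ
      = if B = A then φ B else 0 := by
    intro B
    have := sum_w_orth B A
    calc _ = ((2 : ℝ) ^ Fintype.card ι)⁻¹ * φ B * ∑ η : ι → Bool, w B η * w A η := by
          rw [Finset.mul_sum]; apply Finset.sum_congr rfl; intro η _; ring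
      _ = _ := by rw [this]; split_ifs <;> field_simp <;> simp
  simp only [this, Finset.sum_ite_eq', Finset.mem_univ, if_true]

/-- product multipliers with factors in `[-1,1]` are contractions -/
lemma Bd_prod (c : ι → ℝ) (hc : ∀ i, |c i| ≤ 1) : Bd X (fun A => ∏ i ∈ A, c i) 1 := by
  have hp : ∀ i b, 0 ≤ (1 + c i * signVal b) / 2 := by
    intro i b
    have := abs_le.mp (hc i)
    cases b <;> simp [signVal] <;> linarith
  have h := Bd_sum (X := X) Finset.univ (fun θ : ι → Bool => ∏ i, (1 + c i * signVal (θ i)) / 2)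
    (fun θ A => w A θ) 1 (fun θ _ => Bd_w θ)
  have h1 : (∑ θ : ι → Bool, |∏ i, (1 + c i * signVal (θ i)) / 2|) = 1 := by
    have : ∀ θ : ι → Bool, |∏ i, (1 + c i * signVal (θ i)) / 2|
        = ∏ i, (1 + c i * signVal (θ i)) / 2 :=
      fun θ => abs_of_nonneg (Finset.prod_nonneg fun i _ => hp i _)
    simp only [this]
    have h3 := Finset.prod_univ_sum (fun _ : ι => (Finset.univ : Finset Bool))
      (fun i b => (1 + c i * signVal b) / 2)
    simp only [Fintype.piFinset_univ] at h3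
    rw [← h3]
    apply Finset.prod_eq_one
    intro i _
    simp [signVal]; ring
  rw [h1, one_mul] at h
  refine Bd_congr h ?_
  intro A
  have h3 := Finset.prod_univ_sum (fun _ : ι => (Finset.univ : Finset Bool))
      (fun i b => (1 + c i * signVal b) / 2 * (if i ∈ A then signVal b else 1))
  simp only [Fintype.piFinset_univ] at h3
  simp only [w_eq_prod_univ, ← Finset.prod_mul_distrib]
  rw [← h3, ← Finset.univ_inter A, ← Finset.prod_ite_mem]
  apply Finset.prod_congr rfl
  intro i _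
  by_cases hi : i ∈ A <;> simp [hi, signVal] <;> ring

end Crest.Agent.R118P
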